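import Mathlib

/-!
# Flip lemma and corner lemma (helper405's form)

`S` is a self-dual unital 2-positive map with the co-Schwarz inequality `S Y (S Y)ᴴ ≤ S (Yᴴ Y)`.
Every corner `C` of `θ, θ'` gives a HERMITIAN corner `Z` of `S θ, S θ'` with
`tr Z ≥ 2 Re tr C - (tr θ + tr θ') / 2`.
-/

set_option autoImplicit false
set_option linter.unusedSectionVars false

namespace Vale.Agent.P372.H116

open Matrix
open scoped ComplexOrder

variable {n : Type*} [Fintype n] [DecidableEq n]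

/-- the hypotheses on the noise -/
structure Noise (S : Matrix n n ℂ →ₗ[ℂ] Matrix n n ℂ) : Prop where
  one : S 1 = 1
  tr : ∀ X, (S X).trace = X.trace
  dual : ∀ X Y, (S X * Y).trace = (X * S Y).trace
  star : ∀ X, S Xᴴ = (S X)ᴴ
  pos2 : ∀ A B C, (fromBlocks A B Bᴴ C).PosSemidef →
    (fromBlocks (S A) (S B) (S Bᴴ) (S C)).PosSemidef
  flip : ∀ Y, (S (Yᴴ * Y) - S Y * (S Y)ᴴ).PosSemidef

theorem tr_nonneg {A : Matrix n n ℂ} (h : A.PosSemidef) : 0 ≤ A.trace.re :=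
  (Complex.le_def.1 h.trace_nonneg).1

open scoped MatrixOrder in
theorem exists_gram {B : Matrix n n ℂ} (hB : B.PosSemidef) : ∃ C : Matrix n n ℂ, B = Cᴴ * C := by
  obtain ⟨C, hC⟩ := CStarAlgebra.nonneg_iff_eq_star_mul_self.mp hB.nonneg
  exact ⟨C, hC⟩

theorem tr_mul_nonneg {A B : Matrix n n ℂ} (hA : A.PosSemidef) (hB : B.PosSemidef) :
    0 ≤ (A * B).trace.re := by
  obtain ⟨C, rfl⟩ := exists_gram hB
  have h : (A * (Cᴴ * C)).trace = (C * A * Cᴴ).trace := by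
    rw [← Matrix.mul_assoc, Matrix.trace_mul_comm, ← Matrix.mul_assoc]
  rw [h]
  exact tr_nonneg (hA.mul_mul_conjTranspose_same C)

/-- **The flip lemma.** -/
theorem flip_lemma {S : Matrix n n ℂ →ₗ[ℂ] Matrix n n ℂ} (hS : Noise S) {ρ : Matrix n n ℂ}
    (hρ : ρ.PosDef) (hσ : (S ρ).PosDef) (X : Matrix n n ℂ) :
    (S X * (S ρ)⁻¹ * (S X)ᴴ).trace.re ≤ (Xᴴ * ρ⁻¹ * X).trace.re := by
  set σ := S ρ with hσd
  have hu : IsUnit σ.det := (Matrix.isUnit_iff_isUnit_det _).1 hσ.isUnit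
  have hv : IsUnit ρ.det := (Matrix.isUnit_iff_isUnit_det _).1 hρ.isUnit
  set Y : Matrix n n ℂ := σ⁻¹ * (S X)ᴴ with hY
  set V : Matrix n n ℂ := S Y with hV
  have h1 : (S X * σ⁻¹ * (S X)ᴴ).trace = (X * V).trace := by
    rw [Matrix.mul_assoc, ← hY, hV, ← hS.dual]
  have h2 : (S X * σ⁻¹ * (S X)ᴴ).trace = (ρ * S (Y * Yᴴ)).trace := by
    rw [← hS.dual, ← hσd, hY, Matrix.conjTranspose_mul, Matrix.conjTranspose_conjTranspose,
      (hσ.1.inv : (σ⁻¹)ᴴ = σ⁻¹), ← Matrix.mul_assoc σ, ← Matrix.mul_assoc σ,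
      Matrix.mul_nonsing_inv σ hu, Matrix.one_mul, Matrix.trace_mul_comm]
  have h3 : 0 ≤ (ρ * (S (Y * Yᴴ) - Vᴴ * V)).trace.re := by
    refine tr_mul_nonneg hρ.posSemidef ?_
    have := hS.flip Yᴴ
    rw [Matrix.conjTranspose_conjTranspose, hS.star, Matrix.conjTranspose_conjTranspose] at this
    exact this
  have h4 : 0 ≤ ((X - ρ * Vᴴ)ᴴ * ρ⁻¹ * (X - ρ * Vᴴ)).trace.re := by
    exact tr_nonneg (hρ.inv.posSemidef.conjTranspose_mul_mul_same _)
  have h5 : ((X - ρ * Vᴴ)ᴴ * ρ⁻¹ * (X - ρ * Vᴴ)).trace =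
      (Xᴴ * ρ⁻¹ * X).trace - (Xᴴ * Vᴴ).trace - (V * X).trace + (V * ρ * Vᴴ).trace := by
    have e1 : (X - ρ * Vᴴ)ᴴ = Xᴴ - V * ρ := by
      rw [Matrix.conjTranspose_sub, Matrix.conjTranspose_mul, Matrix.conjTranspose_conjTranspose,
        (hρ.1 : ρᴴ = ρ)]
    have e2 : (Xᴴ - V * ρ) * ρ⁻¹ * (X - ρ * Vᴴ) =
        Xᴴ * ρ⁻¹ * X - Xᴴ * Vᴴ - V * X + V * ρ * Vᴴ := by
      have e3 : V * ρ * ρ⁻¹ = V := by
        rw [Matrix.mul_assoc, Matrix.mul_nonsing_inv ρ hv, Matrix.mul_one]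
      have e4 : Xᴴ * ρ⁻¹ * (ρ * Vᴴ) = Xᴴ * Vᴴ := by
        rw [Matrix.mul_assoc, ← Matrix.mul_assoc ρ⁻¹, Matrix.nonsing_inv_mul ρ hv, Matrix.one_mul]
      rw [Matrix.sub_mul, e3, Matrix.sub_mul, Matrix.mul_sub, Matrix.mul_sub, e4,
        ← Matrix.mul_assoc V]
      abel
    rw [e1, e2, Matrix.trace_add, Matrix.trace_sub, Matrix.trace_sub]
  have h6 : (Xᴴ * Vᴴ).trace.re = (X * V).trace.re := by
    rw [← Matrix.conjTranspose_mul, Matrix.trace_conjTranspose, Matrix.trace_mul_comm V X]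
    simp
  have h7 : (V * X).trace = (X * V).trace := Matrix.trace_mul_comm _ _
  have h8 : (V * ρ * Vᴴ).trace = (ρ * (Vᴴ * V)).trace := by
    rw [Matrix.mul_assoc, Matrix.trace_mul_comm, Matrix.mul_assoc]
  rw [h5] at h4
  rw [Matrix.mul_sub, Matrix.trace_sub, ← h2] at h3
  simp only [Complex.sub_re, Complex.add_re] at h3 h4
  rw [h6, h7, h8, ← h1] at h4
  rw [h1] at *
  linarith

theorem pd_of_noise {S : Matrix n n ℂ →ₗ[ℂ] Matrix n n ℂ} (hS : Noise S) {A : Matrix n n ℂ}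
    (hA : A.PosSemidef) : (S A).PosSemidef := by
  have h : (fromBlocks A (0 : Matrix n n ℂ) (0 : Matrix n n ℂ)ᴴ (0 : Matrix n n ℂ)).PosSemidef := by
    obtain ⟨C, rfl⟩ := exists_gram hA
    have h1 := posSemidef_conjTranspose_mul_self (fromBlocks C (0 : Matrix n n ℂ) 0 (0 : Matrix n n ℂ))
    rw [fromBlocks_conjTranspose, fromBlocks_multiply] at h1
    simpa using h1
  have h2 := hS.pos2 _ _ _ h
  have h3 := h2.submatrix (Sum.inl : n → n ⊕ n)
  have e : (fromBlocks (S A) (S (0 : Matrix n n ℂ)) (S ((0 : Matrix n n ℂ)ᴴ))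
      (S (0 : Matrix n n ℂ))).submatrix (Sum.inl : n → n ⊕ n) Sum.inl = S A := by
    ext i j
    rfl
  rw [← e]
  exact h3

theorem posDef_of_noise {S : Matrix n n ℂ →ₗ[ℂ] Matrix n n ℂ} (hS : Noise S) {A : Matrix n n ℂ}
    (hA : A.PosDef) : (S A).PosDef := by
  by_cases hne : Nonempty n
  · obtain ⟨e, he, hA'⟩ : ∃ e : ℝ, 0 < e ∧ (A - (e : ℂ) • (1 : Matrix n n ℂ)).PosSemidef := by
      obtain ⟨i0, hi0⟩ := Finite.exists_min hA.1.eigenvalues
      refine ⟨hA.1.eigenvalues i0, hA.eigenvalues_pos i0, ?_⟩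
      set U : Matrix n n ℂ := (hA.1.eigenvectorUnitary : Matrix n n ℂ) with hU
      have hUU : U * Uᴴ = 1 := by
        have := (hA.1.eigenvectorUnitary).2
        exact (Matrix.mem_unitaryGroup_iff.1 this)
      have hsp : A = U * diagonal (fun i => (hA.1.eigenvalues i : ℂ)) * Uᴴ := by
        have := hA.1.spectral_theorem
        simpa [Unitary.conjStarAlgAut_apply, Function.comp_def, hU,
          Matrix.star_eq_conjTranspose] using this
      have h1 : A - ((hA.1.eigenvalues i0 : ℝ) : ℂ) • (1 : Matrix n n ℂ) =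
          U * diagonal (fun i => ((hA.1.eigenvalues i - hA.1.eigenvalues i0 : ℝ) : ℂ)) * Uᴴ := by
        have h2 : (diagonal (fun i => ((hA.1.eigenvalues i - hA.1.eigenvalues i0 : ℝ) : ℂ)) :
            Matrix n n ℂ) = diagonal (fun i => (hA.1.eigenvalues i : ℂ)) -
              ((hA.1.eigenvalues i0 : ℝ) : ℂ) • (1 : Matrix n n ℂ) := by
          ext i j
          by_cases hij : i = j
          · subst hij
            simp
          · simp [hij]
        rw [h2, Matrix.mul_sub, Matrix.sub_mul, ← hsp, Matrix.mul_smul, Matrix.mul_one,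
          Matrix.smul_mul, hUU]
      rw [h1]
      refine PosSemidef.mul_mul_conjTranspose_same ?_ U
      refine Matrix.PosSemidef.diagonal fun i => ?_
      show (0 : ℂ) ≤ ((hA.1.eigenvalues i - hA.1.eigenvalues i0 : ℝ) : ℂ)
      exact_mod_cast sub_nonneg.2 (hi0 i)
    have h1 := pd_of_noise hS hA'
    rw [map_sub, map_smul, hS.one] at h1
    have h2 : ((e : ℂ) • (1 : Matrix n n ℂ)).PosDef := by
      have : (0 : ℂ) < (e : ℂ) := by exact_mod_cast he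
      exact PosDef.one.smul this
    have h3 := h2.add_posSemidef h1
    have h4 : (e : ℂ) • (1 : Matrix n n ℂ) + (S A - (e : ℂ) • (1 : Matrix n n ℂ)) = S A := by abel
    rwa [h4] at h3
  · have : IsEmpty n := not_nonempty_iff.1 hne
    have h1 : S A = A := Subsingleton.elim _ _
    rw [h1]
    exact hA

theorem herm_inv {A : Matrix n n ℂ} (hA : A.PosDef) : (A⁻¹)ᴴ = A⁻¹ := hA.1.inv

/-- **The corner lemma** (405; real parameter: 740) for a positive definite `θ`. -/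
theorem corner_mu {S : Matrix n n ℂ →ₗ[ℂ] Matrix n n ℂ} (hS : Noise S) {θ θ' C : Matrix n n ℂ}
    (hθ : θ.PosDef) (hC : (fromBlocks θ C Cᴴ θ').PosSemidef) :
    ∃ Z : Matrix n n ℂ, Z.IsHermitian ∧ (fromBlocks (S θ) Z Z (S θ')).PosSemidef ∧
      ∀ μ : ℝ, 4 * μ * C.trace.re - 2 * μ ^ 2 * (θ.trace.re + θ'.trace.re) ≤ Z.trace.re := by
  set s := S θ with hsd
  set K := S C with hK
  have hs : s.PosDef := posDef_of_noise hS hθ
  have hu : IsUnit s.det := (Matrix.isUnit_iff_isUnit_det _).1 hs.isUnit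
  have hKK : (K * s⁻¹ * Kᴴ).PosSemidef := hs.inv.posSemidef.mul_mul_conjTranspose_same K
  set N := s + K * s⁻¹ * Kᴴ with hN
  have hNp : N.PosDef := hs.add_posSemidef hKK
  have hv : IsUnit N.det := (Matrix.isUnit_iff_isUnit_det _).1 hNp.isUnit
  have hNi : (N⁻¹)ᴴ = N⁻¹ := herm_inv hNp
  have hsi : (s⁻¹)ᴴ = s⁻¹ := herm_inv hs
  set Z : Matrix n n ℂ := (2 : ℂ) • (Kᴴ * N⁻¹ * K) with hZ
  have hZh : Z.IsHermitian := by
    show Zᴴ = Z
    rw [hZ, Matrix.conjTranspose_smul, Matrix.conjTranspose_mul, Matrix.conjTranspose_mul,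
      Matrix.conjTranspose_conjTranspose, hNi, ← Matrix.mul_assoc]
    simp
  -- Schur complements
  have hsc : (S θ' - Kᴴ * s⁻¹ * K).PosSemidef := by
    have h1 := hS.pos2 _ _ _ hC
    rw [hS.star, ← hK, ← hsd] at h1
    have := hs.isUnit.invertible
    exact (PosDef.fromBlocks₁₁ K (S θ') hs).1 h1
  have hsc' : (θ' - Cᴴ * θ⁻¹ * C).PosSemidef := by
    have := hθ.isUnit.invertible
    exact (PosDef.fromBlocks₁₁ C θ' hθ).1 hC
  refine ⟨Z, hZh, ?_, ?_⟩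
  · have h1 : (s⁻¹ - (4 : ℂ) • N⁻¹ + (4 : ℂ) • (N⁻¹ * s * N⁻¹)).PosSemidef := by
      have h2 := hs.inv.posSemidef.mul_mul_conjTranspose_same (1 - (2 : ℂ) • (N⁻¹ * s))
      have h3 : (1 - (2 : ℂ) • (N⁻¹ * s)) * s⁻¹ * (1 - (2 : ℂ) • (N⁻¹ * s))ᴴ =
          s⁻¹ - (4 : ℂ) • N⁻¹ + (4 : ℂ) • (N⁻¹ * s * N⁻¹) := by
        have e1 : (1 - (2 : ℂ) • (N⁻¹ * s))ᴴ = 1 - (2 : ℂ) • (s * N⁻¹) := by
          rw [Matrix.conjTranspose_sub, Matrix.conjTranspose_smul, Matrix.conjTranspose_mul, hNi,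
            (hs.1 : sᴴ = s), Matrix.conjTranspose_one]
          simp
        have e2 : N⁻¹ * s * s⁻¹ = N⁻¹ := by
          rw [Matrix.mul_assoc, Matrix.mul_nonsing_inv s hu, Matrix.mul_one]
        have e3 : s⁻¹ * (s * N⁻¹) = N⁻¹ := by
          rw [← Matrix.mul_assoc, Matrix.nonsing_inv_mul s hu, Matrix.one_mul]
        rw [e1, Matrix.sub_mul, Matrix.one_mul, Matrix.smul_mul, e2, Matrix.mul_sub,
          Matrix.sub_mul, Matrix.sub_mul, Matrix.mul_one, Matrix.mul_smul, Matrix.mul_smul, e3,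
          Matrix.mul_one, Matrix.smul_mul, ← Matrix.mul_assoc N⁻¹ s]
        module
      rw [h3] at h2
      exact h2
    have h4 : S θ' - Zᴴ * s⁻¹ * Z = (S θ' - Kᴴ * s⁻¹ * K) +
        Kᴴ * (s⁻¹ - (4 : ℂ) • N⁻¹ + (4 : ℂ) • (N⁻¹ * s * N⁻¹)) * K := by
      have e4 : N⁻¹ * (K * s⁻¹ * Kᴴ) * N⁻¹ = N⁻¹ - N⁻¹ * s * N⁻¹ := by
        have : K * s⁻¹ * Kᴴ = N - s := by rw [hN]; abel
        rw [this, Matrix.mul_sub, Matrix.nonsing_inv_mul N hv, Matrix.sub_mul, Matrix.one_mul]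
      have e5 : Zᴴ * s⁻¹ * Z = (4 : ℂ) • (Kᴴ * (N⁻¹ * (K * s⁻¹ * Kᴴ) * N⁻¹) * K) := by
        rw [(hZh : Zᴴ = Z), hZ, Matrix.smul_mul, Matrix.smul_mul, Matrix.mul_smul, smul_smul]
        norm_num
        simp only [Matrix.mul_assoc]
      rw [e5, e4]
      simp only [Matrix.mul_sub, Matrix.mul_add, Matrix.sub_mul, Matrix.add_mul, Matrix.mul_smul,
        Matrix.smul_mul]
      module
    have h5 : (S θ' - Zᴴ * s⁻¹ * Z).PosSemidef := by
      rw [h4]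
      exact hsc.add (h1.conjTranspose_mul_mul_same K)
    have := hs.isUnit.invertible
    have h6 := (PosDef.fromBlocks₁₁ Z (S θ') hs).2 h5
    rwa [(hZh : Zᴴ = Z)] at h6
  · intro μ
    have h1 : 0 ≤ ((K - (μ : ℂ) • N)ᴴ * N⁻¹ * (K - (μ : ℂ) • N)).trace.re :=
      tr_nonneg (hNp.inv.posSemidef.conjTranspose_mul_mul_same _)
    have h2 : ((K - (μ : ℂ) • N)ᴴ * N⁻¹ * (K - (μ : ℂ) • N)) =
        Kᴴ * N⁻¹ * K - (μ : ℂ) • Kᴴ - (μ : ℂ) • K + ((μ ^ 2 : ℝ) : ℂ) • N := by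
      have e1 : (K - (μ : ℂ) • N)ᴴ = Kᴴ - (μ : ℂ) • N := by
        rw [Matrix.conjTranspose_sub, Matrix.conjTranspose_smul, (hNp.1 : Nᴴ = N)]
        congr 2
        simp
      have e2 : N * N⁻¹ = 1 := Matrix.mul_nonsing_inv N hv
      have e3 : Kᴴ * N⁻¹ * N = Kᴴ := by
        rw [Matrix.mul_assoc, Matrix.nonsing_inv_mul N hv, Matrix.mul_one]
      rw [e1]
      simp only [Matrix.mul_sub, Matrix.sub_mul, Matrix.mul_smul, Matrix.smul_mul, e2, e3,
        Matrix.one_mul]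
      push_cast
      module
    have h3 : N.trace = s.trace + (K * s⁻¹ * Kᴴ).trace := by rw [hN, Matrix.trace_add]
    have h4 := flip_lemma hS hθ hs C
    rw [← hsd, ← hK] at h4
    have h5 : 0 ≤ (θ' - Cᴴ * θ⁻¹ * C).trace.re := tr_nonneg hsc'
    have h6 : s.trace = θ.trace := hS.tr θ
    have h7 : K.trace = C.trace := hS.tr C
    have h8 : Kᴴ.trace.re = K.trace.re := by
      rw [Matrix.trace_conjTranspose]
      simp
    have h9 : Z.trace.re = 2 * (Kᴴ * N⁻¹ * K).trace.re := by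
      rw [hZ, Matrix.trace_smul]
      simp
    rw [h2] at h1
    simp only [Matrix.trace_add, Matrix.trace_sub, Matrix.trace_smul, Complex.add_re,
      Complex.sub_re, smul_eq_mul, Complex.re_ofReal_mul] at h1
    rw [h8] at h1
    rw [Matrix.trace_sub, Complex.sub_re] at h5
    have h10 : N.trace.re = s.trace.re + (K * s⁻¹ * Kᴴ).trace.re := by
      rw [h3, Complex.add_re]
    rw [h6] at h10
    rw [h7] at h1
    rw [h9]
    have h11 : N.trace.re ≤ θ.trace.re + θ'.trace.re := by linarith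
    have h12 : μ ^ 2 * N.trace.re ≤ μ ^ 2 * (θ.trace.re + θ'.trace.re) :=
      mul_le_mul_of_nonneg_left h11 (sq_nonneg μ)
    linarith

/-- **The corner lemma** (405) for a positive definite `θ`. -/
theorem corner {S : Matrix n n ℂ →ₗ[ℂ] Matrix n n ℂ} (hS : Noise S) {θ θ' C : Matrix n n ℂ}
    (hθ : θ.PosDef) (hC : (fromBlocks θ C Cᴴ θ').PosSemidef) :
    ∃ Z : Matrix n n ℂ, Z.IsHermitian ∧ (fromBlocks (S θ) Z Z (S θ')).PosSemidef ∧
      2 * C.trace.re - (θ.trace.re + θ'.trace.re) / 2 ≤ Z.trace.re := by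
  obtain ⟨Z, h1, h2, h3⟩ := corner_mu hS hθ hC
  refine ⟨Z, h1, h2, ?_⟩
  have := h3 (1 / 2)
  linarith

end Vale.Agent.P372.H116
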